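import Vale.Agent.P273.H655.Bd
import Vale.Agent.P273.H857.HolInt

/-!
Row GP-HOLR: the half periods are holomorphic.
-/

open Complex Set Filter Topology MeasureTheory
open scoped ContDiff

namespace Vale.Agent.P273.H655

open Vale.Agent.P273.H857

noncomputable section

/-- the primitive is given by any admissible path -/
theorem P_eq (hI : StmINV) {k : ℕ} {B : Finset (Fin 6)} {b : C6} {x : ℂ} {g : ℝ → ℝ}
    (hk : k ≤ 1) (hb : Function.Injective b) (h : Adm B b x g) : P k B b x = PG k B b x g := by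
  have h1 : ∃ g, Adm B b x g := ⟨g, h⟩
  rw [P, dif_pos h1]
  exact (hI k B b x hk hb).2 _ _ h1.choose_spec h

/-- injective configurations form an open set -/
theorem eventually_injective {b₀ : C6} (hb : Function.Injective b₀) :
    ∀ᶠ b in 𝓝 b₀, Function.Injective b := by
  have h1 : ∀ᶠ b : C6 in 𝓝 b₀, ∀ i j : Fin 6, i ≠ j → b i ≠ b j := by
    refine eventually_all.2 fun i => eventually_all.2 fun j => ?_
    by_cases h : i = j
    · exact Eventually.of_forall fun b h2 => absurd h h2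
    · have h2 : ∀ᶠ b : C6 in 𝓝 b₀, b i ≠ b j :=
        (isOpen_ne_fun (continuous_apply i) (continuous_apply j)).mem_nhds (hb.ne h)
      exact h2.mono fun b h3 _ => h3
  filter_upwards [h1] with b h2 i j h3
  by_contra h4
  exact h2 i j h4 h3

theorem stmHOLR (hE : StmEX) (hI : StmINV) (hL : StmLOWR) : StmHOLR := by
  intro k B b₀ j hk hb ho
  obtain ⟨g, hg⟩ := hE B b₀ (b₀ j) ho
  obtain ⟨ε, hε, c, hc, h⟩ := hL B b₀ j g hg fun l hl => hb.ne hl
  obtain ⟨K, hK⟩ := hg.1.bdd
  have hs : Differentiable ℝ g := hg.1.smooth.differentiable (by simp)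
  have h0 : g 0 = 0 := hg.1.zero
  have hball : ∀ b ∈ Metric.ball b₀ ε, Adm B b (b j) g ∧ (∀ l, l ≠ j → b l ≠ b j) ∧
      ∀ t ≥ (0 : ℝ), ∀ l, l ≠ j → c * (1 + t) ≤ ‖gam (b j) g t - b l‖ := by
    intro b hbb
    exact h b (by rwa [Metric.mem_ball, dist_eq_norm] at hbb)
  have hdiff : DifferentiableOn ℂ
      (fun b : C6 => ∫ t in Ioi (0 : ℝ), igd k B b (b j) g t) (Metric.ball b₀ ε) := by
    refine differentiableOn_integral_hol (G := fun b : C6 => fun t => igd k B b (b j) g t)
      Metric.isOpen_ball (fun b hb1 => aesm_igd (hball b hb1).1) ?_ ?_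
    · filter_upwards [ae_restrict_mem measurableSet_Ioi] with t ht b hb1
      exact (differentiableAt_igd_root
        ((hball b hb1).1.mem_Dm (show (0 : ℝ) < t from ht))).differentiableWithinAt
    · intro b hb1
      obtain ⟨r, hr, hrU⟩ := Metric.isOpen_iff.1 Metric.isOpen_ball b hb1
      refine ⟨r, hr, hrU, fun t => ((‖b₀‖ + ε) + 1 + K) * (1 + K) * (Real.sqrt c ^ 5)⁻¹ *
        (t ^ (-(1 / 2) : ℝ) * (1 + t) ^ (-(3 / 2) : ℝ)), integrable_maj.const_mul _, ?_⟩
      filter_upwards [ae_restrict_mem measurableSet_Ioi] with t ht q hq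
      have hq1 := hrU hq
      refine igd_bound_root hk hs h0 hK hc ?_ (hball q hq1).2.2 ht
      rw [Metric.mem_ball, dist_eq_norm] at hq1
      calc ‖q j‖ ≤ ‖q‖ := norm_le_pi_norm q j
        _ = ‖b₀ + (q - b₀)‖ := by rw [add_sub_cancel]
        _ ≤ ‖b₀‖ + ‖q - b₀‖ := norm_add_le _ _
        _ ≤ ‖b₀‖ + ε := by linarith
  have han : AnalyticAt ℂ (fun b : C6 => -∫ t in Ioi (0 : ℝ), igd k B b (b j) g t) b₀ :=
    (Vale.Agent.P268.analyticAt_of_differentiableOn Metric.isOpen_ball hdiff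
      (Metric.mem_ball_self hε)).neg
  refine han.congr ?_
  filter_upwards [Metric.ball_mem_nhds b₀ hε, eventually_injective hb] with b hb1 hb2
  exact (P_eq hI hk hb2 (hball b hb1).1).symm

end

end Vale.Agent.P273.H655
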